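import Vale.Agent.P290.K.AllDefs
import Vale.Agent.P267.H399.Calc
import Vale.Agent.P268.Hol

/-!
# P290: K3 surfaces (charts in `ℂ × ℂ`) in the language of P267 (charts in `Fin 2 → ℂ`)

For `X` with `[ChartedSpace (ℂ × ℂ) X]` we put on `X` the charts `toFL e = φ ∘ e`,
`φ (a, b) = ![a, b]`. The instances are given for the types `X.X`, `X : All.K3`.
-/

set_option linter.unusedVariables false
set_option linter.unusedSectionVars false

open scoped Manifold ContDiff ComplexConjugate Topology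
open Set Filter

noncomputable section

namespace Vale.Agent.P290.H445

open Vale.Agent.P267

/-- `ℂ × ℂ ≃ (Fin 2 → ℂ)` -/
def φ : (ℂ × ℂ) ≃L[ℂ] FL.C2 := (ContinuousLinearEquiv.finTwoArrow ℂ ℂ).symm

@[simp] theorem φ_apply (p : ℂ × ℂ) : φ p = ![p.1, p.2] := rfl

@[simp] theorem φ_symm_apply (v : FL.C2) : φ.symm v = (v 0, v 1) := rfl

section gen

variable {X : Type*} [TopologicalSpace X]

/-- the chart `φ ∘ e` -/
def toFL (e : OpenPartialHomeomorph X (ℂ × ℂ)) : FL.Ch X := e.transHomeomorph φ.toHomeomorph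

@[simp] theorem toFL_source (e : OpenPartialHomeomorph X (ℂ × ℂ)) : (toFL e).source = e.source :=
  rfl

@[simp] theorem toFL_target (e : OpenPartialHomeomorph X (ℂ × ℂ)) :
    (toFL e).target = φ.symm ⁻¹' e.target := rfl

@[simp] theorem toFL_apply (e : OpenPartialHomeomorph X (ℂ × ℂ)) (x : X) :
    toFL e x = φ (e x) := rfl

@[simp] theorem toFL_symm_apply (e : OpenPartialHomeomorph X (ℂ × ℂ)) (z : FL.C2) :
    (toFL e).symm z = e.symm (φ.symm z) := rfl

/-- the charts `φ ∘ e` -/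
abbrev flCharted (X : Type*) [TopologicalSpace X] [ChartedSpace (ℂ × ℂ) X] :
    ChartedSpace FL.C2 X where
  atlas := toFL '' atlas (ℂ × ℂ) X
  chartAt x := toFL (chartAt (ℂ × ℂ) x)
  mem_chart_source x := mem_chart_source (ℂ × ℂ) x
  chart_mem_atlas x := mem_image_of_mem _ (chart_mem_atlas _ x)

theorem flManifold [ChartedSpace (ℂ × ℂ) X] [IsManifold 𝓘(ℂ, ℂ × ℂ) ω X] :
    @IsManifold ℂ _ FL.C2 _ _ FL.C2 _ 𝓘(ℂ, FL.C2) ω X _ (flCharted X) := by
  let _ := flCharted X
  refine isManifold_of_contDiffOn _ _ _ ?_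
  rintro _ _ ⟨e, he, rfl⟩ ⟨e', he', rfl⟩
  have h := (contDiffGroupoid ω 𝓘(ℂ, ℂ × ℂ)).compatible he he'
  rw [contDiffGroupoid, mem_groupoid_of_pregroupoid, contDiffPregroupoid] at h
  have h1 := h.1
  simp only [modelWithCornersSelf_coe, modelWithCornersSelf_coe_symm,
    Function.comp_id, Function.id_comp, range_id, preimage_id, inter_univ] at h1 ⊢
  have h2 : ContDiffOn ℂ ω (φ ∘ (e.symm.trans e') ∘ φ.symm)
      (φ.symm ⁻¹' (e.symm.trans e').source) := by
    refine φ.contDiff.comp_contDiffOn (h1.comp φ.symm.contDiff.contDiffOn ?_)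
    intro z hz
    exact hz
  refine h2.mono ?_
  intro z hz
  exact hz

end gen

/-! ### instances on K3 surfaces -/

section K3

variable (X : All.K3)

instance instFLCharted : ChartedSpace FL.C2 X.X := flCharted X.X

instance instManifold : IsManifold 𝓘(ℂ, ℂ × ℂ) ω X.X := X.manifold

instance instManifoldFL : IsManifold 𝓘(ℂ, FL.C2) ω X.X := flManifold

instance instT2 : T2Space X.X := X.t2

instance instCompact : CompactSpace X.X := X.compact

instance instSC : SimplyConnectedSpace X.X := X.sc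

instance instConnected : ConnectedSpace X.X := inferInstance

instance instSecondCountable : SecondCountableTopology X.X :=
  ChartedSpace.secondCountable_of_sigmaCompact FL.C2 X.X

instance instLocPathConnected : LocallyPathConnectedSpace X.X :=
  ChartedSpace.locallyPathConnectedSpace FL.C2 X.X

theorem mem_atlas_toFL {e : OpenPartialHomeomorph X.X (ℂ × ℂ)} (he : e ∈ atlas (ℂ × ℂ) X.X) :
    toFL e ∈ atlas FL.C2 X.X := mem_image_of_mem _ he

theorem mem_atlas_iff {e' : FL.Ch X.X} :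
    e' ∈ atlas FL.C2 X.X ↔ ∃ e ∈ atlas (ℂ × ℂ) X.X, toFL e = e' := Iff.rfl

@[simp] theorem chartAt_FL (x : X.X) : chartAt FL.C2 x = toFL (chartAt (ℂ × ℂ) x) := rfl

theorem jacM_det {e e' : OpenPartialHomeomorph X.X (ℂ × ℂ)} (he : e ∈ atlas (ℂ × ℂ) X.X)
    (he' : e' ∈ atlas (ℂ × ℂ) X.X) {x : X.X} (hx : x ∈ e.source) (hx' : x ∈ e'.source) :
    (FL.jacM (toFL e) (toFL e') x).det = (fderiv ℂ (fun z => e' (e.symm z)) (e x)).det := by
  have h0 := FL.trans_differentiableAt (mem_atlas_toFL X he) (mem_atlas_toFL X he') (x := x) hx hx'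
  have h1 : (fun z => e' (e.symm z)) =
      φ.symm ∘ (fun z => toFL e' ((toFL e).symm z)) ∘ φ := by
    funext z
    simp
  have h2 : fderiv ℂ (fun z => e' (e.symm z)) (e x) =
      (φ.symm : FL.C2 →L[ℂ] ℂ × ℂ).comp
        ((fderiv ℂ (fun z => toFL e' ((toFL e).symm z)) (toFL e x)).comp
          (φ : ℂ × ℂ →L[ℂ] FL.C2)) := by
    rw [h1]
    refine HasFDerivAt.fderiv ?_
    refine (φ.symm : FL.C2 →L[ℂ] ℂ × ℂ).hasFDerivAt.comp _ ?_
    exact HasFDerivAt.comp (e x) h0.hasFDerivAt (φ : ℂ × ℂ →L[ℂ] FL.C2).hasFDerivAt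
  have h3 : (FL.jacM (toFL e) (toFL e') x).toLin' =
      (fderiv ℂ (fun z => toFL e' ((toFL e).symm z)) (toFL e x) : FL.C2 →ₗ[ℂ] FL.C2) := by
    ext1 v
    ext1
    rw [LinearMap.comp_apply, LinearMap.comp_apply, Matrix.toLin'_apply,
      FL.jacM_mulVec (mem_atlas_toFL X he) (mem_atlas_toFL X he') hx hx']
    rfl
  rw [h2, ← LinearMap.det_toLin', h3, ContinuousLinearMap.det]
  symm
  exact LinearMap.det_conj _ φ.symm.toLinearEquiv

/-- the holomorphic two-form: `Om X x` is its coefficient at `x` in the preferred coordinates -/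
def Om (x : X.X) : ℂ := X.vol (chartAt (ℂ × ℂ) x) (chartAt (ℂ × ℂ) x x)

theorem Om_ne_zero (x : X.X) : Om X x ≠ 0 :=
  (X.holo _ (chart_mem_atlas _ x)).2 _ (mem_chart_target _ x) |>.1

theorem loc_Om {e : OpenPartialHomeomorph X.X (ℂ × ℂ)} (he : e ∈ atlas (ℂ × ℂ) X.X) {z : FL.C2}
    (hz : z ∈ (toFL e).target) : FL.loc0 1 (toFL e) (Om X) z = X.vol e (φ.symm z) := by
  have hz' : φ.symm z ∈ e.target := hz
  have h := ((X.holo e he).2 _ hz').2 (chartAt (ℂ × ℂ) (e.symm (φ.symm z))) (chart_mem_atlas _ _)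
    (mem_chart_source _ _)
  have h2 := jacM_det X he (chart_mem_atlas _ (e.symm (φ.symm z))) (e.map_target hz')
    (mem_chart_source _ _)
  rw [e.right_inv hz'] at h2
  rw [FL.loc0, zpow_one, toFL_symm_apply, FL.jac, chartAt_FL, h2, h, smul_eq_mul, mul_comm]
  rfl

theorem HolOn_Om : FL.HolOn 1 (Om X) univ := by
  rintro _ ⟨e, he, rfl⟩
  have h := (X.holo e he).1.comp (φ.symm : FL.C2 →L[ℂ] ℂ × ℂ).differentiableOn
    (s := (toFL e).target) (fun z hz => hz)
  rw [preimage_univ, inter_univ]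
  exact h.congr fun z hz => loc_Om X he hz

theorem Reg0_Om : FL.Reg0 ∞ 1 (Om X) := by
  intro e he
  have h := HolOn_Om X e he
  rw [preimage_univ, inter_univ] at h
  exact (contDiffOn_infty.2
    (Vale.Agent.P268.contDiffOn_of_differentiableOn e.open_target h)).restrict_scalars ℝ

/-- `FL.HolOn 0` in terms of the charts in `ℂ × ℂ` -/
theorem holOn_zero_iff {V : Type*} [NormedAddCommGroup V] [NormedSpace ℂ V] {f : X.X → V}
    {U : Set X.X} : FL.HolOn 0 f U ↔ ∀ e ∈ atlas (ℂ × ℂ) X.X,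
      DifferentiableOn ℂ (f ∘ e.symm) (e.target ∩ e.symm ⁻¹' U) := by
  constructor
  · intro h e he
    have h1 := h _ (mem_atlas_toFL X he)
    rw [FL.LB.loc0_zero] at h1
    exact (h1.comp (φ : ℂ × ℂ →L[ℂ] FL.C2).differentiableOn
      (s := e.target ∩ e.symm ⁻¹' U) (fun z hz => hz))
  · rintro h _ ⟨e, he, rfl⟩
    rw [FL.LB.loc0_zero]
    exact ((h e he).comp (φ.symm : FL.C2 →L[ℂ] ℂ × ℂ).differentiableOn
      (s := (toFL e).target ∩ (toFL e).symm ⁻¹' U) (fun z hz => hz))

/-- holomorphic functions are constant -/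
theorem const_of_hol {V : Type*} [NormedAddCommGroup V] [NormedSpace ℂ V] {f : X.X → V}
    (hf : FL.HolOn 0 f univ) : ∃ c, ∀ x, f x = c := by
  have n1 : IsManifold 𝓘(ℂ, FL.C2) 1 X.X := IsManifold.of_le (n := ω) le_top
  have h1 : MDifferentiable 𝓘(ℂ, FL.C2) 𝓘(ℂ, V) f := by
    intro x
    have h := hf (chartAt FL.C2 x) (chart_mem_atlas _ x)
    rw [preimage_univ, inter_univ] at h
    have h2 : DifferentiableAt ℂ (FL.loc0 0 (chartAt FL.C2 x) f) (chartAt FL.C2 x x) :=
      h.differentiableAt ((chartAt FL.C2 x).open_target.mem_nhds (mem_chart_target _ x))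
    rw [FL.LB.loc0_zero] at h2
    rw [mdifferentiableAt_iff]
    constructor
    · have h3 := h2.continuousAt
      have h4 : ContinuousAt ((f ∘ (chartAt FL.C2 x).symm) ∘ chartAt FL.C2 x) x :=
        ContinuousAt.comp (g := f ∘ (chartAt FL.C2 x).symm) h3
          ((chartAt FL.C2 x).continuousAt (mem_chart_source _ x))
      refine h4.congr ?_
      filter_upwards [(chartAt FL.C2 x).open_source.mem_nhds (mem_chart_source _ x)] with y hy
      simp only [Function.comp_apply]
      rw [(chartAt FL.C2 x).left_inv hy]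
    · exact h2.differentiableWithinAt
  obtain ⟨c, hc⟩ := h1.exists_eq_const_of_compactSpace
  exact ⟨c, fun x => congrFun hc x⟩

/-- holomorphic two-forms are multiples of `Om` -/
theorem holOn_one {s : X.X → ℂ} (hs : FL.HolOn 1 s univ) : ∃ c : ℂ, ∀ x, s x = c * Om X x := by
  have h : FL.HolOn 0 (fun x => s x / Om X x) univ := by
    intro e he
    have h1 := hs e he
    have h2 := HolOn_Om X e he
    rw [preimage_univ, inter_univ] at h1 h2 ⊢
    have h3 : ∀ z ∈ e.target, FL.loc0 1 e (Om X) z ≠ 0 := by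
      intro z hz
      rw [FL.loc0, zpow_one]
      exact mul_ne_zero (FL.jac_det_ne_zero he (e.map_target hz)) (Om_ne_zero X _)
    refine (h1.mul (h2.fun_inv h3)).congr fun z hz => ?_
    have h4 := FL.jac_det_ne_zero he (e.map_target hz)
    have h5 := Om_ne_zero X (e.symm z)
    simp only [FL.loc0, Pi.mul_apply, zpow_zero, zpow_one, smul_eq_mul, one_mul]
    field_simp
  obtain ⟨c, hc⟩ := const_of_hol X h
  exact ⟨c, fun x => by rw [← hc x]; exact (div_mul_cancel₀ _ (Om_ne_zero X x)).symm⟩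

end K3

end Vale.Agent.P290.H445
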