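import Vale.Agent.P290.H445.Mul

/-!
# P290: the cohomology of a K3 surface, from the Riemann-Roch block of P267

`X : All.K3`. Inputs: `RR.RRBlock` (finite dimension, Serre duality, Riemann-Roch) and, for
`χ(𝒪) = 2`, the vanishing `H01 X` of `H^{0,1}`.
-/

set_option linter.unusedVariables false
set_option linter.unusedSectionVars false

open scoped Manifold ContDiff ComplexConjugate Topology
open Set Filter

noncomputable section

namespace Vale.Agent.P290.H445

open Vale.Agent.P267 Vale.Agent.P267.FL Vale.Agent.P267.RR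

section K3

variable (X : All.K3)

/-- `H^{0,1} = 0`: every `∂̄`-closed `(0,1)`-form is `∂̄`-exact -/
def H01 : Prop :=
  ∀ a : X.X → Fin 2 → ℂ, Reg1 ∞ 0 a → (∀ x, dbar1 0 a x = 0) →
    ∃ u : X.X → ℂ, Reg0 ∞ 0 u ∧ ∀ x i, dbar0 0 u x i = a x i

/-- the inverse of `Om`, a section of `K^{-1}` -/
def OmI (x : X.X) : ℂ := (Om X x)⁻¹

theorem OmI_mul (x : X.X) : OmI X x * Om X x = 1 := inv_mul_cancel₀ (Om_ne_zero X x)

theorem Om_mul (x : X.X) : Om X x * OmI X x = 1 := mul_inv_cancel₀ (Om_ne_zero X x)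

theorem loc0_Om_ne_zero {e : Ch X.X} (he : e ∈ atlas FL.C2 X.X) {z : FL.C2} (hz : z ∈ e.target) :
    loc0 1 e (Om X) z ≠ 0 := by
  rw [loc0, zpow_one]
  exact mul_ne_zero (jac_det_ne_zero he (e.map_target hz)) (Om_ne_zero X _)

theorem HolOn_OmI : HolOn (-1) (OmI X) univ := by
  intro e he
  have h2 := HolOn_Om X e he
  rw [preimage_univ, inter_univ] at h2 ⊢
  refine (h2.fun_inv fun z hz => loc0_Om_ne_zero X he hz).congr fun z hz => ?_
  simp only [loc0, OmI, zpow_neg, zpow_one, smul_eq_mul, mul_inv]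

theorem Reg0_OmI : Reg0 ∞ (-1) (OmI X) := reg0_of_holOn (HolOn_OmI X)

/-- the trivial bundle is the canonical bundle -/
theorem isCanon_OX : IsCanon (OX X.X) := by
  refine ⟨fun x => OmI X x • EuclideanSpace.single 0 (1 : ℂ), ?_, ?_, ?_⟩
  · have h : Reg0 ∞ 0 (fun _ : X.X => (EuclideanSpace.single 0 (1 : ℂ) : EuclideanSpace ℂ (Fin 1))) := by
      intro e he
      rw [LB.loc0_zero]
      exact contDiffOn_const
    exact Reg0.smul' (κ := 0) (Reg0_OmI X) h
  · intro x
    ext i
    fin_cases i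
    simp [LB.act, LB.triv, Matrix.mulVec, dotProduct]
  · intro x h
    have := congrFun (congrArg WithLp.ofLp h) 0
    simp [OmI, Om_ne_zero] at this

/-! ### `K^0 ⊗ L` and `K^1 ⊗ L` -/

variable {ι : Type} [Fintype ι] [DecidableEq ι]

theorem act_smul' (M : Matrix ι ι ℂ) (c : ℂ) (v : EuclideanSpace ℂ ι) :
    LB.act M (c • v) = c • LB.act M v := RR.act_smul M c v

theorem db0_mul (L : LB X.X ι) (a : X.X → Fin 2 → ℂ) {μ κ : ℤ} {f : X.X → ℂ}
    {s : X.X → EuclideanSpace ℂ ι} (hf : HolOn μ f univ) (hs : Reg0 ∞ κ s) (x : X.X) (i : Fin 2) :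
    L.db0 a (μ + κ) (fun x => f x • s x) x i = f x • L.db0 a κ s x i := by
  simp only [LB.db0, dbar0_mul hf hs, act_smul', smul_add]
  rw [smul_comm (a x i)]

theorem db1_mul (L : LB X.X ι) (a : X.X → Fin 2 → ℂ) {μ κ : ℤ} {f : X.X → ℂ}
    {w : X.X → Fin 2 → EuclideanSpace ℂ ι} (hf : HolOn μ f univ) (hw : Reg1 ∞ κ w) (x : X.X) :
    L.db1 a (μ + κ) (fun x i => f x • w x i) x = f x • L.db1 a κ w x := by
  simp only [LB.db1, dbar1_mul hf hw, act_smul', smul_add, smul_sub]
  rw [smul_comm (a x 0), smul_comm (a x 1)]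

/-- multiplication by `Om` -/
def mulOm (V : Type*) [AddCommGroup V] [Module ℂ V] : (X.X → V) ≃ₗ[ℂ] (X.X → V) where
  toFun s x := Om X x • s x
  map_add' s t := by funext x; simp
  map_smul' c s := by funext x; simp [smul_comm c]
  invFun s x := OmI X x • s x
  left_inv s := by funext x; simp [smul_smul, OmI_mul]
  right_inv s := by funext x; simp [smul_smul, Om_mul]

theorem H0_one (L : LB X.X ι) (a : X.X → Fin 2 → ℂ) (κ : ℤ) :
    H0 L a (1 + κ) = (H0 L a κ).map (mulOm X (EuclideanSpace ℂ ι)).toLinearMap := by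
  ext s
  constructor
  · intro hs
    rw [mem_H0] at hs
    obtain ⟨⟨h1, h2⟩, h3⟩ := hs
    refine ⟨(mulOm X _).symm s, ?_, by simp⟩
    have h4 : Reg0 ∞ (-1 + (1 + κ)) (fun x => OmI X x • s x) := Reg0.smul' (Reg0_OmI X) h1
    rw [neg_add_cancel_left] at h4
    refine (mem_H0 L a κ).2 ⟨⟨h4, fun x => ?_⟩, ?_⟩
    · change LB.act _ (OmI X x • s x) = OmI X x • s x
      rw [act_smul', h2 x]
    · funext x i
      have h5 := db0_mul X L a (HolOn_OmI X) h1 x i
      rw [neg_add_cancel_left, h3] at h5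
      exact h5.trans (by simp)
  · rintro ⟨t, ht, rfl⟩
    obtain ⟨⟨h1, h2⟩, h3⟩ := (mem_H0 L a κ).1 ht
    refine (mem_H0 L a (1 + κ)).2 ⟨⟨Reg0.smul' (Reg0_Om X) h1, fun x => ?_⟩, ?_⟩
    · change LB.act _ (Om X x • t x) = Om X x • t x
      rw [act_smul', h2 x]
    · funext x i
      have h5 := db0_mul X L a (HolOn_Om X) h1 x i
      rw [h3] at h5
      exact h5.trans (by simp)

/-- `h⁰(K^{κ+1} L) = h⁰(K^κ L)` -/
theorem h0_one (L : LB X.X ι) (a : X.X → Fin 2 → ℂ) (κ : ℤ) :
    h0 L a (1 + κ) = h0 L a κ := by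
  rw [h0, H0_one]
  exact LinearEquiv.finrank_map_eq (mulOm X (EuclideanSpace ℂ ι)) (H0 L a κ)

/-! ### the structure sheaf -/

/-- a line bundle in `ℂ¹` is everything -/
theorem sec_one (M : LB X.X (Fin 1)) (s : X.X → EuclideanSpace ℂ (Fin 1)) : M.Sec s := by
  intro x
  have h : M.P x 0 0 = 1 := by
    have := M.tr x
    simpa [Matrix.trace] using this
  ext i
  fin_cases i
  simp [LB.act, Matrix.mulVec, dotProduct, h]

theorem act_one (M : LB X.X (Fin 1)) (x : X.X) (v : EuclideanSpace ℂ (Fin 1)) :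
    LB.act (M.P x) v = v := sec_one X M (fun _ => v) x

theorem h0_O (M : LB X.X (Fin 1)) : h0 M 0 0 = 1 := by
  have h : H0 M 0 0 = Submodule.span ℂ
      {(fun _ => EuclideanSpace.single 0 1 : X.X → EuclideanSpace ℂ (Fin 1))} := by
    ext s
    rw [mem_H0, Submodule.mem_span_singleton]
    constructor
    · rintro ⟨⟨h1, h2⟩, h3⟩
      have h4 : ∀ x i, dbar0 0 s x i = 0 := by
        intro x i
        have := congrFun (congrFun h3 x) i
        simpa [LB.db0, act_one] using this
      obtain ⟨c, hc⟩ := const_of_hol X (holOn_of_dbar h1 h4)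
      refine ⟨c 0, ?_⟩
      funext x
      rw [hc x]
      ext i
      fin_cases i
      simp
    · rintro ⟨c, rfl⟩
      have h4 : HolOn 0 (c • fun _ => (EuclideanSpace.single 0 (1 : ℂ) : EuclideanSpace ℂ (Fin 1)) :
          X.X → _) univ := by
        intro e he
        rw [LB.loc0_zero]
        exact differentiableOn_const _
      refine ⟨⟨reg0_of_holOn h4, sec_one X M _⟩, ?_⟩
      funext x i
      have := dbar_of_holOn h4 x i
      simp [LB.db0, act_one, this]
  rw [h0, h]
  refine finrank_span_singleton fun h5 => ?_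
  obtain ⟨x⟩ : Nonempty X.X := inferInstance
  have := congrFun (congrArg WithLp.ofLp (congrFun h5 x)) 0
  simp at this

theorem h1_O (h : H01 X) : h1 (OX X.X) 0 0 = 0 := by
  rw [h1]
  have : Subsingleton (RR.H1 (OX X.X) 0 0) := by
    rw [Submodule.Quotient.subsingleton_iff, Submodule.comap_subtype_eq_top]
    intro w hw
    obtain ⟨⟨h1, h2⟩, h3⟩ := (mem_Z1 _ _ _).1 hw
    have h4 : Reg1 ∞ 0 (fun x i => w x i 0) := by
      intro e he
      have h5 := h1 e he
      rw [contDiffOn_pi] at h5 ⊢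
      intro i
      have h6 : (fun z => loc1 0 e (fun x i => w x i 0) z i) =
          fun z => (loc1 0 e w z i) 0 := by
        funext z
        simp [loc1]
      rw [h6]
      exact ((EuclideanSpace.proj 0 : EuclideanSpace ℂ (Fin 1) →L[ℂ] ℂ).restrictScalars
        ℝ).contDiff.comp_contDiffOn (h5 i)
    have h5 : ∀ x, dbar1 0 (fun x i => w x i 0) x = 0 := by
      intro x
      have h6 := congrFun h3 x
      have h7 : dbar1 0 (fun x i => w x i 0) x = (dbar1 0 w x) 0 := by
        have hd : ∀ i, DifferentiableAt ℝ (fun z => loc1 0 (chartAt FL.C2 x) w z i)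
            (chartAt FL.C2 x x) := fun i => Reg1.differentiableAt h1 x i
        have hl : ∀ i, (fun z => loc1 0 (chartAt FL.C2 x) (fun x i => w x i 0) z i) =
            fun z => (EuclideanSpace.proj 0 : EuclideanSpace ℂ (Fin 1) →L[ℂ] ℂ)
              (loc1 0 (chartAt FL.C2 x) w z i) := by
          intro i
          funext z
          simp [loc1]
        rw [dbar1, hl, hl, dzb_clm _ (hd 1), dzb_clm _ (hd 0)]
        simp [dbar1]
      rw [h7]
      have h8 : dbar1 0 w x = 0 := by simpa [LB.db1, act_one] using h6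
      rw [h8]
      rfl
    obtain ⟨u, hu, hu2⟩ := h _ h4 h5
    rw [mem_B1]
    have h9 : Reg0 ∞ 0 (fun x => u x • (EuclideanSpace.single 0 (1 : ℂ) :
        EuclideanSpace ℂ (Fin 1))) := by
      intro e he
      have := hu e he
      rw [LB.loc0_zero] at this ⊢
      exact this.smul contDiffOn_const
    refine ⟨_, ⟨h9, sec_one X _ _⟩, ?_⟩
    funext x i
    have hd : DifferentiableAt ℝ (loc0 0 (chartAt FL.C2 x) u) (chartAt FL.C2 x x) :=
      Reg0.differentiableAt hu x
    have h10 : dbar0 0 (fun x => u x • (EuclideanSpace.single 0 (1 : ℂ) :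
        EuclideanSpace ℂ (Fin 1))) x i = dbar0 0 u x i • EuclideanSpace.single 0 (1 : ℂ) := by
      have hl : loc0 0 (chartAt FL.C2 x) (fun x => u x • (EuclideanSpace.single 0 (1 : ℂ) :
        EuclideanSpace ℂ (Fin 1))) = fun z => loc0 0 (chartAt FL.C2 x) u z •
          (fun _ => (EuclideanSpace.single 0 (1 : ℂ) : EuclideanSpace ℂ (Fin 1))) z := by
        funext z
        simp [loc0]
      rw [dbar0, hl, FL.dzb_smul hd (differentiableAt_const _), dzb_const]
      simp [dbar0]
    simp only [LB.db0, act_one, h10, hu2, Pi.zero_apply, zero_smul, add_zero]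
    ext k
    fin_cases k
    simp
  exact Module.finrank_zero_of_subsingleton

/-- `χ(𝒪) = 2` -/
theorem chi_O (hS : SerreStmt X.X) (h : H01 X) : chi (OX X.X) 0 0 = 2 := by
  have hol : (OX X.X).IsHol 0 := by
    refine ⟨reg1_zero 0, fun x => ?_⟩
    have h1 : dbar1 0 (0 : X.X → Fin 2 → ℂ) x = 0 := by
      have : ∀ i, (fun z => loc1 0 (chartAt FL.C2 x) (0 : X.X → Fin 2 → ℂ) z i) = fun _ => 0 := by
        intro i
        funext z
        simp [loc1]
      rw [dbar1, this, this]
      simp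
    have h2 : (OX X.X).F02 x = 0 := by
      have h3 : ∀ i j (k : Fin 2), dbar0 0 (fun y => (OX X.X).P y i j) x k = 0 := by
        intro i j k
        rw [dbar0, LB.loc0_zero]
        exact dzb_const _ _ _
      simp [LB.F02, h3, Matrix.trace]
    rw [h1, h2, add_zero]
  obtain ⟨e0, e1, e2⟩ := hS (Fin 1) (OX X.X) 0 hol 0
  have h3 : h2 (OX X.X) 0 0 = 1 := by
    rw [e2, neg_zero]
    have := h0_one X (OX X.X).dual 0 0
    simp only [add_zero, sub_zero] at this ⊢
    rw [this]
    exact h0_O X _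
  rw [chi, h0_O, h1_O X h, h3]
  norm_num

/-! ### Riemann-Roch -/

theorem intX_zero : intX (fun _ : X.X => (0 : ℂ)) = 0 := by
  unfold intX
  split_ifs with h
  · have h1 := h.choose_spec 0 (fun i => i.elim0) (fun i => i.elim0) (fun i => i.elim0)
      (fun i => i.elim0) (fun i => i.elim0) (fun i => i.elim0) (fun x hx => by
        have h2 : tsupport (fun _ : X.X => (0 : ℂ)) = ∅ := by
          rw [tsupport, Function.support_fun_zero, closure_empty]
        rw [h2] at hx
        exact hx.elim)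
    simpa using h1.symm
  · rfl

theorem curv_OX : (OX X.X).curv = ⟨fun _ => 0, fun _ => 0, fun _ => 0⟩ := by
  have h3 : ∀ x i j (k : Fin 2), dbar0 0 (fun y => (OX X.X).P y i j) x k = 0 := by
    intro x i j k
    rw [dbar0, LB.loc0_zero]
    exact dzb_const _ _ _
  have h4 : ∀ (x : X.X) i j (k : Fin 2), del0 (fun y => (OX X.X).P y i j) x k = 0 := by
    intro x i j k
    exact dz_const _ _ _
  have e1 : (OX X.X).F20 = fun _ => 0 := by
    funext x
    simp [LB.F20, h4, Matrix.trace]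
  have e2 : (OX X.X).F11 = fun _ => 0 := by
    funext x
    ext i j
    simp [LB.F11, h4, h3, Matrix.trace]
  have e3 : (OX X.X).F02 = fun _ => 0 := by
    funext x
    simp [LB.F02, h3, Matrix.trace]
  rw [LB.curv, e1, e2, e3]

theorem isec_OX (L : LB X.X ι) : isec L (OX X.X) = 0 := by
  rw [isec, curv_OX]
  have : (L.curv.wedge ⟨fun _ => 0, fun _ => 0, fun _ => 0⟩) = fun _ : X.X => (0 : ℂ) := by
    funext x
    simp [TwoF.wedge]
  rw [this, intX_zero, mul_zero]

/-- Riemann-Roch: `χ(L) = 2 + L²/2` -/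
theorem chi_eq (hS : SerreStmt X.X) (hR : RRStmt X.X) (h : H01 X) (L : LB X.X ι)
    {a : X.X → Fin 2 → ℂ} (hL : L.IsHol a) : (chi L a 0 : ℂ) = 2 + isec L L / 2 := by
  rw [hR ι (Fin 1) L a (OX X.X) hL (isCanon_OX X), chi_O X hS h, isec_OX, sub_zero]
  norm_num

/-- the self-intersection number is even and `h⁰(L) + h⁰(L^*) ≥ 2 + L²/2` -/
theorem rr_ineq (hS : SerreStmt X.X) (hR : RRStmt X.X) (h : H01 X) (L : LB X.X ι)
    {a : X.X → Fin 2 → ℂ} (hL : L.IsHol a) :
    ∃ n : ℤ, isec L L = 2 * n ∧ 2 + n ≤ h0 L a 0 + h0 L.dual (-a) 0 ∧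
      2 + n = h0 L a 0 + h0 L.dual (-a) 0 - h1 L a 0 := by
  have h1 := chi_eq X hS hR h L hL
  have h2 : RR.h2 L a 0 = h0 L.dual (-a) 0 := by
    rw [(hS ι L a hL 0).2.2]
    exact h0_one X L.dual (-a) 0
  refine ⟨chi L a 0 - 2, ?_, ?_, ?_⟩
  · push_cast
    rw [h1]
    ring
  · rw [chi, h2]
    have : (0 : ℤ) ≤ RR.h1 L a 0 := Int.natCast_nonneg _
    linarith
  · rw [chi, h2]
    ring

end K3

end Vale.Agent.P290.H445
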