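import Mathlib

/-!
# P290: integrality and evenness of the intersection form

If `x² ∈ 2ℤ` for all `x` with `x.e ≠ 0` and there is such an `x`, then `x.y ∈ ℤ` and `x² ∈ 2ℤ` for
all `x`, `y`. (The classes `x` with `x.e ≠ 0` are Chern classes of holomorphic line bundles on a
twist, where Riemann-Roch applies.)
-/

namespace Vale.Agent.P290.H445

theorem even_of_twists {H : Type*} [AddCommGroup H] (B : H →+ H →+ ℂ)
    (symm : ∀ x y, B x y = B y x) (e h : H) (he : B h e ≠ 0)
    (hev : ∀ c, B c e ≠ 0 → ∃ k : ℤ, B c c = 2 * k) :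
    (∀ x, ∃ k : ℤ, B x x = 2 * k) ∧ ∀ x y, ∃ k : ℤ, B x y = k := by
  obtain ⟨kh, hkh⟩ := hev h he
  have key : ∀ x, ∃ k : ℤ, B x x = 2 * k := by
    intro x
    -- squares of `x + n h`
    have hf : ∀ n : ℤ, B (x + n • h) (x + n • h) = B x x + 2 * n * B x h + n ^ 2 * (2 * kh) := by
      intro n
      simp only [map_add, map_zsmul, AddMonoidHom.add_apply, AddMonoidHom.coe_smul, Pi.smul_apply,
        zsmul_eq_mul]
      rw [symm h x, hkh]
      ring
    have hg : ∀ n : ℤ, B (x + n • h) e = B x e + n * B h e := by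
      intro n
      simp only [map_add, map_zsmul, AddMonoidHom.add_apply, AddMonoidHom.coe_smul, Pi.smul_apply,
        zsmul_eq_mul]
    -- two consecutive good integers
    obtain ⟨n, h1, h2⟩ : ∃ n : ℤ, B (x + n • h) e ≠ 0 ∧ B (x + (n + 1) • h) e ≠ 0 := by
      by_contra hcon
      push Not at hcon
      have hz : ∀ n m : ℤ, B (x + n • h) e = 0 → B (x + m • h) e = 0 → n = m := by
        intro n m hn hm
        rw [hg] at hn hm
        have h3 : ((n : ℂ) - m) * B h e = 0 := by linear_combination hn - hm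
        have h4 := (mul_eq_zero.1 h3).resolve_right he
        exact_mod_cast sub_eq_zero.1 h4
      have h01 := hcon 0
      have h23 := hcon 2
      by_cases h0 : B (x + (0 : ℤ) • h) e = 0
      · by_cases h2 : B (x + (2 : ℤ) • h) e = 0
        · have := hz _ _ h0 h2
          omega
        · have := hz _ _ h0 (h23 h2)
          omega
      · by_cases h2 : B (x + (2 : ℤ) • h) e = 0
        · have := hz _ _ (h01 h0) h2
          omega
        · have := hz _ _ (h01 h0) (h23 h2)
          omega
    obtain ⟨k1, hk1⟩ := hev _ h1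
    obtain ⟨k2, hk2⟩ := hev _ h2
    rw [hf] at hk1 hk2
    push_cast at hk2
    have hxh : B x h = ((k2 - k1 - (2 * n + 1) * kh : ℤ) : ℂ) := by
      push_cast
      linear_combination (hk2 - hk1) / 2
    refine ⟨k1 - n * (k2 - k1 - (2 * n + 1) * kh) - n ^ 2 * kh, ?_⟩
    rw [hxh] at hk1
    push_cast at hk1 ⊢
    linear_combination hk1
  refine ⟨key, fun x y => ?_⟩
  obtain ⟨k1, h1⟩ := key x
  obtain ⟨k2, h2⟩ := key y
  obtain ⟨k3, h3⟩ := key (x + y)
  refine ⟨k3 - k1 - k2, ?_⟩
  simp only [map_add, AddMonoidHom.add_apply] at h3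
  rw [symm y x] at h3
  push_cast
  linear_combination (h3 - h1 - h2) / 2

end Vale.Agent.P290.H445
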