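import Vale.Agent.P290.H445.Lef
import Vale.Agent.P267.H533.IntPos

/-!
# P290: the integration facts used in `Lef.lean` hold (from P267/H533)
-/

set_option linter.unusedVariables false
set_option linter.unusedSectionVars false

open scoped Manifold ContDiff ComplexConjugate Topology
open Set Filter

noncomputable section

namespace Vale.Agent.P290.H445

open Vale.Agent.P267 Vale.Agent.P267.FL Vale.Agent.P267.RR

theorem Reg1.of_le' {X : Type*} [TopologicalSpace X] [ChartedSpace FL.C2 X] {m n : WithTop ℕ∞}
    {κ : ℤ} {a : X → Fin 2 → ℂ} (h : Reg1 n κ a) (hm : m ≤ n) : Reg1 m κ a :=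
  fun e he => (h e he).of_le hm

theorem intFacts (X : Type) [TopologicalSpace X] [ChartedSpace FL.C2 X] [T2Space X]
    [CompactSpace X] [Nonempty X] [IsManifold 𝓘(ℂ, FL.C2) ω X] : IntFacts X where
  add f g hf hg := H533.intX_add hf.locInt (HasCompactSupport.of_compactSpace f) hg.locInt
    (HasCompactSupport.of_compactSpace g)
  smul c f hf := H533.intX_const_mul hf.locInt (HasCompactSupport.of_compactSpace f) c
  stokes c hc := H533.intX_dbar1 (Reg1.of_le' hc (by exact_mod_cast le_top))
    (HasCompactSupport.of_compactSpace c)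
  pos f hf h := by
    intro h0
    have h1 : f = fun x => (((f x).re : ℝ) : ℂ) := by
      funext x
      apply Complex.ext
      · simp
      · simpa using (h x).2
    have h2 : ∀ e ∈ atlas FL.C2 X, ContinuousOn (loc2 1 e fun x => (((f x).re : ℝ) : ℂ))
        e.target := by
      rw [← h1]
      exact fun e he => (hf e he).continuousOn
    obtain ⟨x⟩ : Nonempty X := inferInstance
    have h3 := H533.intX_re_pos h2 (HasCompactSupport.of_compactSpace _) (fun x => (h x).1.le)
      (x₀ := x) (h x).1
    rw [← h1, h0] at h3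
    exact lt_irrefl _ h3

theorem intFactsK (X : All.K3) : IntFacts X.X := intFacts X.X

/-- Riemann-Roch for a line bundle orthogonal to `Om`: it has a holomorphic structure, its square is
even, and it or its dual has sections. -/
theorem rr_of_orth (X : All.K3) (hS : SerreStmt X.X) (hR : RRStmt X.X) (h : H01 X) {ι : Type}
    [Fintype ι] [DecidableEq ι] (L : LB X.X ι) (hL : Reg2 ∞ 0 L.F02)
    (h0 : intX (fun x => Om X x * L.F02 x) = 0) :
    ∃ (a : X.X → Fin 2 → ℂ) (n : ℤ), L.IsHol a ∧ isec L L = 2 * n ∧
      2 + n ≤ RR.h0 L a 0 + RR.h0 L.dual (-a) 0 := by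
  obtain ⟨a, ha⟩ := (lefschetz X hS (intFactsK X) L hL).2 h0
  obtain ⟨n, h1, h2, -⟩ := rr_ineq X hS hR h L ha
  exact ⟨a, n, ha, h1, h2⟩

end Vale.Agent.P290.H445
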