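import Vale.Agent.P290.H445.Coh

/-!
# P290: `(0,2)`-forms on a K3 surface and the Lefschetz (1,1) theorem

A smooth `(0,2)`-form `b` on a K3 surface is `∂̄`-exact iff `∫ b ∧ Om = 0`. Hence a smooth line bundle
`L` has a holomorphic structure iff `∫ c₁(L) ∧ Om = 0`.
-/

set_option linter.unusedVariables false
set_option linter.unusedSectionVars false

open scoped Manifold ContDiff ComplexConjugate Topology
open Set Filter

noncomputable section

namespace Vale.Agent.P290.H445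

open Vale.Agent.P267 Vale.Agent.P267.FL Vale.Agent.P267.RR

/-! ### vector valued forms and their components -/

section comp

variable {X : Type*} [TopologicalSpace X] [ChartedSpace FL.C2 X] [IsManifold 𝓘(ℂ, FL.C2) ω X]
variable {V W : Type*} [NormedAddCommGroup V] [NormedSpace ℂ V] [NormedAddCommGroup W]
  [NormedSpace ℂ W]

theorem loc0_clm (T : V →L[ℂ] W) (κ : ℤ) (e : Ch X) (s : X → V) :
    loc0 κ e (fun x => T (s x)) = fun z => T (loc0 κ e s z) := by
  funext z
  simp [loc0]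

theorem loc1_clm (T : V →L[ℂ] W) (κ : ℤ) (e : Ch X) (a : X → Fin 2 → V) :
    loc1 κ e (fun x i => T (a x i)) = fun z i => T (loc1 κ e a z i) := by
  funext z i
  simp [loc1]

theorem loc2_clm (T : V →L[ℂ] W) (κ : ℤ) (e : Ch X) (b : X → V) :
    loc2 κ e (fun x => T (b x)) = fun z => T (loc2 κ e b z) := by
  funext z
  simp [loc2]

theorem Reg0.clm {n : WithTop ℕ∞} {κ : ℤ} {s : X → V} (hs : Reg0 n κ s) (T : V →L[ℂ] W) :
    Reg0 n κ fun x => T (s x) := by
  intro e he
  rw [loc0_clm]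
  exact (T.restrictScalars ℝ).contDiff.comp_contDiffOn (hs e he)

theorem Reg1.clm {n : WithTop ℕ∞} {κ : ℤ} {a : X → Fin 2 → V} (ha : Reg1 n κ a) (T : V →L[ℂ] W) :
    Reg1 n κ fun x i => T (a x i) := by
  intro e he
  rw [loc1_clm]
  have h := ha e he
  rw [contDiffOn_pi] at h ⊢
  exact fun i => (T.restrictScalars ℝ).contDiff.comp_contDiffOn (h i)

theorem Reg2.clm {n : WithTop ℕ∞} {κ : ℤ} {b : X → V} (hb : Reg2 n κ b) (T : V →L[ℂ] W) :
    Reg2 n κ fun x => T (b x) := by
  intro e he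
  rw [loc2_clm]
  exact (T.restrictScalars ℝ).contDiff.comp_contDiffOn (hb e he)

theorem dbar0_clm {κ : ℤ} {s : X → V} (hs : Reg0 ∞ κ s) (T : V →L[ℂ] W) (x : X) (i : Fin 2) :
    dbar0 κ (fun x => T (s x)) x i = T (dbar0 κ s x i) := by
  rw [dbar0, loc0_clm, dzb_clm T (Reg0.differentiableAt hs x)]
  rfl

theorem dbar1_clm {κ : ℤ} {a : X → Fin 2 → V} (ha : Reg1 ∞ κ a) (T : V →L[ℂ] W) (x : X) :
    dbar1 κ (fun x i => T (a x i)) x = T (dbar1 κ a x) := by
  rw [dbar1, loc1_clm]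
  simp only
  rw [dzb_clm T (Reg1.differentiableAt ha x 1), dzb_clm T (Reg1.differentiableAt ha x 0),
    ← map_sub]
  rfl

end comp

/-- the basis vector map `ℂ → ℂ¹` -/
def inOne : ℂ →L[ℂ] EuclideanSpace ℂ (Fin 1) :=
  (ContinuousLinearMap.id ℂ ℂ).smulRight (EuclideanSpace.single 0 (1 : ℂ))

@[simp] theorem inOne_apply (c : ℂ) : inOne c 0 = c := by simp [inOne]

/-- the coordinate `ℂ¹ → ℂ` -/
def outOne : EuclideanSpace ℂ (Fin 1) →L[ℂ] ℂ := EuclideanSpace.proj 0

@[simp] theorem outOne_apply (v : EuclideanSpace ℂ (Fin 1)) : outOne v = v 0 := rfl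

theorem out_in (c : ℂ) : outOne (inOne c) = c := by simp

theorem in_out (v : EuclideanSpace ℂ (Fin 1)) : inOne (outOne v) = v := by
  ext i
  fin_cases i
  simp

/-! ### facts on integrals -/

/-- properties of the integral of `(2,2)`-forms -/
structure IntFacts (X : Type) [TopologicalSpace X] [ChartedSpace FL.C2 X] : Prop where
  add : ∀ f g : X → ℂ, Reg2 ∞ 1 f → Reg2 ∞ 1 g → intX (fun x => f x + g x) = intX f + intX g
  smul : ∀ (c : ℂ) (f : X → ℂ), Reg2 ∞ 1 f → intX (fun x => c * f x) = c * intX f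
  stokes : ∀ c : X → Fin 2 → ℂ, Reg1 ∞ 1 c → intX (dbar1 1 c) = 0
  pos : ∀ f : X → ℂ, Reg2 ∞ 1 f → (∀ x, 0 < (f x).re ∧ (f x).im = 0) → intX f ≠ 0

section K3

variable (X : All.K3)

/-- the conjugate of `Om`, a `(0,2)`-form -/
def OmC (x : X.X) : ℂ := conj (Om X x)

theorem Reg2_OmC : Reg2 ∞ 0 (OmC X) := by
  intro e he
  have h : ContDiffOn ℝ ∞ (fun z => conj (loc0 1 e (Om X) z)) e.target :=
    Complex.conjCLE.contDiff.comp_contDiffOn (Reg0_Om X e he)
  refine h.congr fun z hz => ?_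
  simp only [loc2, loc0, OmC, zpow_zero, zpow_one, smul_eq_mul, one_mul, map_mul]

theorem h2_O (hS : SerreStmt X.X) : RR.h2 (OX X.X) 0 0 = 1 := by
  have hol : (OX X.X).IsHol 0 := by
    refine ⟨reg1_zero 0, fun x => ?_⟩
    have h1 : dbar1 0 (0 : X.X → Fin 2 → ℂ) x = 0 := by
      have : ∀ i, (fun z => loc1 0 (chartAt FL.C2 x) (0 : X.X → Fin 2 → ℂ) z i) = fun _ => 0 := by
        intro i
        funext z
        simp [loc1]
      rw [dbar1, this, this]
      simp
    have h2 : (OX X.X).F02 x = 0 := by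
      have := congrFun (congrArg TwoF.f02 (curv_OX X)) x
      exact this
    rw [h1, h2, add_zero]
  obtain ⟨e0, e1, e2⟩ := hS (Fin 1) (OX X.X) 0 hol 0
  rw [e2, neg_zero]
  have := h0_one X (OX X.X).dual 0 0
  simp only [add_zero, sub_zero] at this ⊢
  rw [this]
  exact h0_O X _

/-- A `(0,2)`-form orthogonal to `Om` is `∂̄`-exact. -/
theorem exists_dbar1 (hS : SerreStmt X.X) (hI : IntFacts X.X) {b : X.X → ℂ} (hb : Reg2 ∞ 0 b)
    (h0 : intX (fun x => Om X x * b x) = 0) :
    ∃ a : X.X → Fin 2 → ℂ, Reg1 ∞ 0 a ∧ ∀ x, dbar1 0 a x = b x := by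
  have hreg : ∀ s : X.X → EuclideanSpace ℂ (Fin 1), Reg2 ∞ 0 s →
      Reg2 ∞ 1 fun x => Om X x * outOne (s x) := fun s hs => by
    simpa using Reg2.smul' (Reg0_Om X) (Reg2.clm hs outOne)
  let lam : RR.A2 (OX X.X) 0 →ₗ[ℂ] ℂ :=
    { toFun := fun s => intX (fun x => Om X x * outOne (s.1 x))
      map_add' := fun s t => by
        rw [← hI.add _ _ (hreg s.1 s.2.1) (hreg t.1 t.2.1)]
        congr 1
        funext x
        simp [mul_add]
      map_smul' := fun c s => by
        rw [RingHom.id_apply, smul_eq_mul, ← hI.smul c _ (hreg s.1 s.2.1)]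
        congr 1
        funext x
        simp
        ring }
  have hker : (B2 (OX X.X) 0 0).comap (RR.A2 (OX X.X) 0).subtype ≤ LinearMap.ker lam := by
    intro s hs
    obtain ⟨w, ⟨hw1, hw2⟩, hw3⟩ := (mem_B2 _ _ _).1 hs
    rw [LinearMap.mem_ker]
    change intX (fun x => Om X x * outOne (s.1 x)) = 0
    have h1 : (fun x => Om X x * outOne (s.1 x)) =
        dbar1 (1 + 0) (fun x i => Om X x • (outOne (w x i))) := by
      funext x
      rw [dbar1_mul (HolOn_Om X) (Reg1.clm hw1 outOne), dbar1_clm hw1 outOne]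
      have h2 := congrFun hw3 x
      have h3 : dbar1 0 w x = s.1 x := by
        rw [← Submodule.subtype_apply, ← h2]
        simp [LB.db1, act_one]
      rw [h3]
      rfl
    rw [h1]
    exact hI.stokes _ (Reg1.smul' (Reg0_Om X) (Reg1.clm hw1 outOne))
  let lam' : RR.H2 (OX X.X) 0 0 →ₗ[ℂ] ℂ := Submodule.liftQ _ lam hker
  let v0 : RR.A2 (OX X.X) 0 := ⟨fun x => inOne (OmC X x), Reg2.clm (Reg2_OmC X) inOne,
    sec_one X _ _⟩
  have hv0 : lam v0 ≠ 0 := by
    change intX (fun x => Om X x * outOne (inOne (OmC X x))) ≠ 0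
    simp only [out_in]
    refine hI.pos _ (by simpa using Reg2.smul' (Reg0_Om X) (Reg2_OmC X)) fun x => ?_
    have h1 := Om_ne_zero X x
    rw [OmC, Complex.mul_conj]
    exact ⟨by simpa using h1, by simp⟩
  let q : RR.A2 (OX X.X) 0 →ₗ[ℂ] RR.H2 (OX X.X) 0 0 := Submodule.mkQ _
  have hq : ∀ s, lam' (q s) = lam s := fun s => Submodule.liftQ_apply _ _ _
  have hv : q v0 ≠ 0 := by
    intro h
    apply hv0
    rw [← hq, h, map_zero]
  have h1 := (finrank_eq_one_iff_of_nonzero' (q v0) hv).1 (h2_O X hS)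
  let sb : RR.A2 (OX X.X) 0 := ⟨fun x => inOne (b x), Reg2.clm hb inOne, sec_one X _ _⟩
  have hsb : lam sb = 0 := by
    change intX (fun x => Om X x * outOne (inOne (b x))) = 0
    simpa only [out_in] using h0
  obtain ⟨c, hc⟩ := h1 (q sb)
  have hc0 : c = 0 := by
    have h2 := congrArg lam' hc
    rw [map_smul, hq, hq, hsb, smul_eq_mul] at h2
    exact (mul_eq_zero.1 h2).resolve_right hv0
  rw [hc0, zero_smul] at hc
  have h3 : sb ∈ (B2 (OX X.X) 0 0).comap (RR.A2 (OX X.X) 0).subtype :=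
    (Submodule.Quotient.mk_eq_zero _).1 hc.symm
  obtain ⟨w, ⟨hw1, hw2⟩, hw3⟩ := (mem_B2 _ _ _).1 h3
  refine ⟨fun x i => outOne (w x i), Reg1.clm hw1 outOne, fun x => ?_⟩
  rw [dbar1_clm hw1 outOne]
  have h4 := congrFun hw3 x
  have h5 : dbar1 0 w x = inOne (b x) := by
    have h6 : ((RR.A2 (OX X.X) 0).subtype sb) x = inOne (b x) := rfl
    rw [← h6, ← h4]
    simp [LB.db1, act_one]
  rw [h5, out_in]

theorem intX_dbar1 (hI : IntFacts X.X) {a : X.X → Fin 2 → ℂ} (ha : Reg1 ∞ 0 a) :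
    intX (fun x => Om X x * dbar1 0 a x) = 0 := by
  have h1 : (fun x => Om X x * dbar1 0 a x) = dbar1 (1 + 0) (fun x i => Om X x • a x i) := by
    funext x
    rw [dbar1_mul (HolOn_Om X) ha]
    rfl
  rw [h1]
  exact hI.stokes _ (Reg1.smul' (Reg0_Om X) ha)

/-- LEFSCHETZ: a smooth line bundle has a holomorphic structure iff its curvature is orthogonal to
`Om`. -/
theorem lefschetz (hS : SerreStmt X.X) (hI : IntFacts X.X) {ι : Type} [Fintype ι] [DecidableEq ι]
    (L : LB X.X ι) (hL : Reg2 ∞ 0 L.F02) :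
    (∃ a, L.IsHol a) ↔ intX (fun x => Om X x * L.F02 x) = 0 := by
  constructor
  · rintro ⟨a, ha⟩
    have h1 : (fun x => Om X x * L.F02 x) = fun x => (-1) * (Om X x * dbar1 0 a x) := by
      funext x
      have := ha.integrable x
      linear_combination Om X x * this
    have h2 : Reg2 ∞ 1 (fun x => Om X x * dbar1 0 a x) := by
      have h3 : (fun x => Om X x * dbar1 0 a x) = fun x => (-1 : ℂ) * (Om X x * L.F02 x) := by
        funext x
        have := ha.integrable x
        linear_combination Om X x * this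
      rw [h3]
      have h4 : Reg2 ∞ 1 (fun x => Om X x * L.F02 x) := by
        simpa using Reg2.smul' (Reg0_Om X) hL
      exact RR.Reg2.smul (-1 : ℂ) h4
    rw [h1, hI.smul _ _ h2, intX_dbar1 X hI ha.smooth, mul_zero]
  · intro h
    have h1 : Reg2 ∞ 0 (fun x => -L.F02 x) := by
      have := RR.Reg2.smul (-1 : ℂ) hL
      convert this using 1
      funext x
      simp
    have h2 : intX (fun x => Om X x * -L.F02 x) = 0 := by
      have h4 : Reg2 ∞ 1 (fun x => Om X x * L.F02 x) := by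
        simpa using Reg2.smul' (Reg0_Om X) hL
      have h3 := hI.smul (-1) _ h4
      rw [h, mul_zero] at h3
      rw [← h3]
      congr 1
      funext x
      ring
    obtain ⟨a, ha, ha2⟩ := exists_dbar1 X hS hI h1 h2
    exact ⟨a, ha, fun x => by rw [ha2, neg_add_cancel]⟩

end K3

end Vale.Agent.P290.H445
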