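import Vale.Agent.P267.H221.Out
import Vale.Agent.P290.H445.Bridge

/-!
# P290: multiplication by holomorphic sections of powers of the canonical bundle

`f` a section of `K^μ` (scalar), holomorphic: `∂̄(f s) = f ∂̄ s` for `s` with values in `K^κ ⊗ V`.
On a K3 surface (`f = Om`, `μ = 1`) this identifies the complexes for all `κ`.
-/

set_option linter.unusedVariables false
set_option linter.unusedSectionVars false

open scoped Manifold ContDiff ComplexConjugate Topology
open Set Filter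

noncomputable section

namespace Vale.Agent.P290.H445

open Vale.Agent.P267 Vale.Agent.P267.FL

section gen

variable {X : Type*} [TopologicalSpace X] [ChartedSpace FL.C2 X] [IsManifold 𝓘(ℂ, FL.C2) ω X]
variable {V : Type*} [NormedAddCommGroup V] [NormedSpace ℂ V]

/-- smooth sections killed by `∂̄` are holomorphic -/
theorem holOn_of_dbar {κ : ℤ} {s : X → V} (hs : Reg0 ∞ κ s) (h : ∀ x i, dbar0 κ s x i = 0) :
    HolOn κ s univ := by
  intro e he
  rw [preimage_univ, inter_univ]
  intro z hz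
  have h1 : DifferentiableAt ℝ (loc0 κ e s) z := (hs.contDiffAt he hz).differentiableAt (by simp)
  refine ((differentiableAt_complex_iff h1).2 fun j => ?_).differentiableWithinAt
  rw [← loc1_dbar0 he hz h1 j, loc1]
  simp [h]

/-- holomorphic sections are killed by `∂̄` -/
theorem dbar_of_holOn {κ : ℤ} {s : X → V} (h : HolOn κ s univ) (x : X) (i : Fin 2) :
    dbar0 κ s x i = 0 := by
  have h1 := h _ (chart_mem_atlas FL.C2 x)
  rw [preimage_univ, inter_univ] at h1
  exact dzb_of_hol (h1.differentiableAt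
    ((chartAt FL.C2 x).open_target.mem_nhds (mem_chart_target FL.C2 x))) i

theorem reg0_of_holOn [CompleteSpace V] {κ : ℤ} {s : X → V} (h : HolOn κ s univ) :
    Reg0 ∞ κ s := by
  intro e he
  have h1 := h e he
  rw [preimage_univ, inter_univ] at h1
  exact (contDiffOn_infty.2
    (Vale.Agent.P268.contDiffOn_of_differentiableOn e.open_target h1)).restrict_scalars ℝ

theorem loc0_mul {μ κ : ℤ} {e : Ch X} (he : e ∈ atlas FL.C2 X) (f : X → ℂ) (s : X → V) {z : FL.C2}
    (hz : z ∈ e.target) : loc0 (μ + κ) e (fun x => f x • s x) z =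
      loc0 μ e f z • loc0 κ e s z := by
  simp only [loc0, zpow_add₀ (jac_det_ne_zero he (e.map_target hz)), smul_smul, smul_eq_mul]
  ring_nf

theorem loc1_mul {μ κ : ℤ} {e : Ch X} (he : e ∈ atlas FL.C2 X) (f : X → ℂ) (a : X → Fin 2 → V)
    {z : FL.C2} (hz : z ∈ e.target) (i : Fin 2) :
    loc1 (μ + κ) e (fun x i => f x • a x i) z i = loc0 μ e f z • loc1 κ e a z i := by
  simp only [loc0, loc1, zpow_add₀ (jac_det_ne_zero he (e.map_target hz)), smul_eq_mul,
    Fin.sum_univ_two]
  module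

theorem loc2_mul {μ κ : ℤ} {e : Ch X} (he : e ∈ atlas FL.C2 X) (f : X → ℂ) (b : X → V) {z : FL.C2}
    (hz : z ∈ e.target) : loc2 (μ + κ) e (fun x => f x • b x) z =
      loc0 μ e f z • loc2 κ e b z := by
  simp only [loc0, loc2, zpow_add₀ (jac_det_ne_zero he (e.map_target hz)), smul_eq_mul]
  module

theorem Reg0.smul' {n : WithTop ℕ∞} {μ κ : ℤ} {f : X → ℂ} {s : X → V} (hf : Reg0 n μ f)
    (hs : Reg0 n κ s) : Reg0 n (μ + κ) fun x => f x • s x := fun e he =>
  ((hf e he).smul (hs e he)).congr fun z hz => loc0_mul he f s hz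

theorem Reg1.smul' {n : WithTop ℕ∞} {μ κ : ℤ} {f : X → ℂ} {a : X → Fin 2 → V} (hf : Reg0 n μ f)
    (ha : Reg1 n κ a) : Reg1 n (μ + κ) fun x i => f x • a x i := fun e he =>
  ((hf e he).smul (ha e he)).congr fun z hz => by
    funext i; exact loc1_mul he f a hz i

theorem Reg2.smul' {n : WithTop ℕ∞} {μ κ : ℤ} {f : X → ℂ} {b : X → V} (hf : Reg0 n μ f)
    (hb : Reg2 n κ b) : Reg2 n (μ + κ) fun x => f x • b x := fun e he =>
  ((hf e he).smul (hb e he)).congr fun z hz => loc2_mul he f b hz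

/-- `∂̄(f s) = f ∂̄ s` -/
theorem dbar0_mul {μ κ : ℤ} {f : X → ℂ} {s : X → V} (hf : HolOn μ f univ) (hs : Reg0 ∞ κ s)
    (x : X) (i : Fin 2) : dbar0 (μ + κ) (fun x => f x • s x) x i = f x • dbar0 κ s x i := by
  have he := chart_mem_atlas FL.C2 x
  have ho := (chartAt FL.C2 x).open_target.mem_nhds (mem_chart_target FL.C2 x)
  have hf1 := hf _ he
  rw [preimage_univ, inter_univ] at hf1
  have hf2 := hf1.differentiableAt ho
  have hs1 : DifferentiableAt ℝ (loc0 κ (chartAt FL.C2 x) s) (chartAt FL.C2 x x) :=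
    (hs.contDiffAt he (mem_chart_target FL.C2 x)).differentiableAt (by simp)
  have h1 : loc0 (μ + κ) (chartAt FL.C2 x) (fun x => f x • s x) =ᶠ[𝓝 (chartAt FL.C2 x x)]
      fun z => loc0 μ (chartAt FL.C2 x) f z • loc0 κ (chartAt FL.C2 x) s z := by
    filter_upwards [ho] with z hz using loc0_mul he f s hz
  rw [dbar0, dzb_congr h1, FL.dzb_smul (hf2.restrictScalars ℝ) hs1, dzb_of_hol hf2, loc0_chartAt,
    zero_smul, add_zero]
  rfl

/-- `∂̄(f a) = f ∂̄ a` -/
theorem dbar1_mul {μ κ : ℤ} {f : X → ℂ} {a : X → Fin 2 → V} (hf : HolOn μ f univ)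
    (ha : Reg1 ∞ κ a) (x : X) :
    dbar1 (μ + κ) (fun x i => f x • a x i) x = f x • dbar1 κ a x := by
  have he := chart_mem_atlas FL.C2 x
  have ho := (chartAt FL.C2 x).open_target.mem_nhds (mem_chart_target FL.C2 x)
  have hf1 := hf _ he
  rw [preimage_univ, inter_univ] at hf1
  have hf2 := hf1.differentiableAt ho
  have ha1 : ∀ i, DifferentiableAt ℝ (fun z => loc1 κ (chartAt FL.C2 x) a z i)
      (chartAt FL.C2 x x) := fun i =>
    differentiableAt_pi.1
      ((ha.contDiffAt he (mem_chart_target FL.C2 x)).differentiableAt (by simp)) i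
  have h1 : ∀ i, (fun z => loc1 (μ + κ) (chartAt FL.C2 x) (fun x i => f x • a x i) z i)
      =ᶠ[𝓝 (chartAt FL.C2 x x)]
      fun z => loc0 μ (chartAt FL.C2 x) f z • loc1 κ (chartAt FL.C2 x) a z i := by
    intro i
    filter_upwards [ho] with z hz using loc1_mul he f a hz i
  rw [dbar1, dzb_congr (h1 1), dzb_congr (h1 0), FL.dzb_smul (hf2.restrictScalars ℝ) (ha1 1),
    FL.dzb_smul (hf2.restrictScalars ℝ) (ha1 0), dzb_of_hol hf2, dzb_of_hol hf2, loc0_chartAt,
    zero_smul, zero_smul, add_zero, add_zero, ← smul_sub]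
  rfl

end gen

end Vale.Agent.P290.H445
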