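import Mathlib

/-!
# P290: unimodularity, the algebra

`Z` = integral 2-cocycles of the nerve, `cl n` = class of the curvature form of the line bundle of
`n`. If every functional on `Z` which vanishes on `ker cl` is an intersection number and if the
intersection numbers are integers, then the intersection form on the group of classes is unimodular.
-/

namespace Vale.Agent.P290.H445

theorem unimodular_of_dual' {Z V : Type*} [AddCommGroup Z] [Module.Finite ℤ Z] [AddCommGroup V]
    [Module ℂ V] (cl : Z →+ V) (B : Z →+ Z →+ ℂ) (hker : ∀ n m, cl m = 0 → B n m = 0)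
    (dual : ∀ φ : Z →+ ℤ, (∀ n, cl n = 0 → φ n = 0) → ∃ m, ∀ n, B n m = φ n)
    (int : ∀ n m, ∃ k : ℤ, B n m = k) :
    ∃ (r : ℕ) (E : Fin r → Z) (G : Matrix (Fin r) (Fin r) ℤ),
      (∀ i j, B (E i) (E j) = G i j) ∧ IsUnit G.det ∧
      ∀ n, ∃! k : Fin r → ℤ, cl n = ∑ i, k i • cl (E i) := by
  classical
  have t1 : Module.IsTorsionFree ℤ V := by
    refine ⟨fun n hn => ?_⟩
    intro v w h
    have hn0 : (n : ℂ) ≠ 0 := by
      have : n ≠ 0 := by
        rintro rfl
        exact (isRegular_iff_ne_zero.1 hn) rfl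
      exact_mod_cast this
    simp only at h
    have h1 : (n : ℂ) • v = (n : ℂ) • w := by
      rw [Int.cast_smul_eq_zsmul, Int.cast_smul_eq_zsmul]
      exact h
    have h2 := congrArg (fun u => (n : ℂ)⁻¹ • u) h1
    simpa [smul_smul, inv_mul_cancel₀ hn0] using h2
  let c : Z →ₗ[ℤ] V := cl.toIntLinearMap
  let Λ : Submodule ℤ V := LinearMap.range c
  have t2 : Module.Finite ℤ Λ := inferInstance
  have t3 : Module.Free ℤ Λ := inferInstance
  let b := Module.finBasis ℤ Λ
  set r := Module.finrank ℤ Λ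
  have hE : ∀ i, ∃ n, cl n = (b i : V) := fun i => (b i).2
  choose E hE using hE
  choose G hG using fun i j => int (E i) (E j)
  -- dual basis
  have hd : ∀ i, ∃ m, ∀ n, B n m = ((b.coord i (c.rangeRestrict n) : ℤ) : ℂ) := by
    intro i
    refine dual ((b.coord i).comp c.rangeRestrict).toAddMonoidHom fun n hn => ?_
    have : c.rangeRestrict n = 0 := Subtype.ext hn
    change b.coord i (c.rangeRestrict n) = 0
    rw [this, map_zero]
  choose m hm using hd
  let A : Matrix (Fin r) (Fin r) ℤ := Matrix.of fun k i => b.coord k (c.rangeRestrict (m i))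
  have hcl : ∀ n, cl n = ∑ k, b.coord k (c.rangeRestrict n) • cl (E k) := by
    intro n
    have h1 := b.sum_repr (c.rangeRestrict n)
    have h2 := congrArg (Submodule.subtype Λ) h1
    rw [map_sum] at h2
    simp only [map_smul, Submodule.subtype_apply, ← hE] at h2
    exact h2.symm
  have hB : ∀ n n', B n n' = ∑ k, b.coord k (c.rangeRestrict n') • B n (E k) := by
    intro n n'
    have h1 : cl (n' - ∑ k, b.coord k (c.rangeRestrict n') • E k) = 0 := by
      rw [map_sub, map_sum]
      simp only [map_zsmul]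
      rw [← hcl n', sub_self]
    have h2 := hker n _ h1
    rw [map_sub, map_sum] at h2
    simp only [map_zsmul] at h2
    exact sub_eq_zero.1 h2
  have hGA : Matrix.of G * A = 1 := by
    ext j i
    rw [Matrix.mul_apply, Matrix.one_apply]
    have h1 := hm i (E j)
    rw [hB] at h1
    simp only [hG] at h1
    have h2 : c.rangeRestrict (E j) = b j := Subtype.ext (hE j)
    rw [h2, Module.Basis.coord_apply, Module.Basis.repr_self, Finsupp.single_apply] at h1
    have h3 : ((∑ k, Matrix.of G j k * A k i : ℤ) : ℂ) = ((if j = i then 1 else 0 : ℤ) : ℂ) := by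
      rw [← h1]
      push_cast
      refine Finset.sum_congr rfl fun k _ => ?_
      simp only [A, Matrix.of_apply, zsmul_eq_mul]
      ring
    exact_mod_cast h3
  refine ⟨r, E, Matrix.of G, hG, ?_, fun n => ?_⟩
  · exact IsUnit.of_mul_eq_one _ (by rw [← Matrix.det_mul, hGA, Matrix.det_one])
  · refine ⟨fun k => b.coord k (c.rangeRestrict n), hcl n, fun k hk => ?_⟩
    have h1 : c.rangeRestrict n = ∑ i, k i • b i := by
      apply Subtype.ext
      change cl n = _
      rw [hk]
      simp [hE]
    funext j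
    rw [h1]
    simp [Finsupp.single_apply]

theorem unimodular_of_dual {Z V : Type*} [AddCommGroup Z] [Module.Finite ℤ Z] [AddCommGroup V]
    [Module ℂ V] (cl : Z →+ V) (B : V →+ V →+ ℂ)
    (dual : ∀ φ : Z →+ ℤ, (∀ n, cl n = 0 → φ n = 0) → ∃ m, ∀ n, B (cl n) (cl m) = φ n)
    (int : ∀ n m, ∃ k : ℤ, B (cl n) (cl m) = k) :
    ∃ (r : ℕ) (E : Fin r → Z) (G : Matrix (Fin r) (Fin r) ℤ),
      (∀ i j, B (cl (E i)) (cl (E j)) = G i j) ∧ IsUnit G.det ∧
      ∀ n, ∃! k : Fin r → ℤ, cl n = ∑ i, k i • cl (E i) := by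
  let B' : Z →+ Z →+ ℂ := (AddMonoidHom.compHom.flip cl).comp (B.comp cl)
  have hB' : ∀ n m, B' n m = B (cl n) (cl m) := fun n m => rfl
  obtain ⟨r, E, G, h1, h2, h3⟩ := unimodular_of_dual' cl B' (fun n m hm => by
    rw [hB', hm, map_zero]) (fun φ hφ => by simpa only [hB'] using dual φ hφ)
    (fun n m => by simpa only [hB'] using int n m)
  exact ⟨r, E, G, fun i j => by rw [← hB', h1], h2, h3⟩

end Vale.Agent.P290.H445
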